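import Mathlib

/-!
# Level sets of `w s = s * exp (-s)` (package C0 for S0423)

For `k > 1` put `s1 k = log k / (k - 1)`, `s2 k = k * s1 k`, `lam k = s1 k * exp (-(s1 k))`.
Then `0 < s1 k < 1 < s2 k`, `s2 k * exp (-(s2 k)) = lam k`, and
`{s ≥ 0 | lam k ≤ s * exp (-s)} = [s1 k, s2 k]`.
-/

set_option autoImplicit false

namespace Crest.Agent.Lead

open Real Set

/-- `s ↦ s * exp (-s)` is monotone on `[0, 1]`. -/
lemma mul_exp_neg_le_of_le_one {s t : ℝ} (hs : 0 ≤ s) (hst : s ≤ t) (ht : t ≤ 1) :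
    s * exp (-s) ≤ t * exp (-t) := by
  -- s * exp (t - s) ≤ t
  have h1 : s * exp (t - s) ≤ t := by
    rcases eq_or_lt_of_le hs with h0 | h0
    · subst h0; simpa using le_trans (le_refl _) (by linarith : (0:ℝ) ≤ t)
    · have hlt : t - s < 1 := by linarith
      have hexp : exp (t - s) ≤ 1 / (1 - (t - s)) := by
        have := Real.add_one_le_exp (-(t - s))
        have hpos : 0 < 1 - (t - s) := by linarith
        rw [le_div_iff₀ hpos]
        have h2 : exp (t - s) * exp (-(t - s)) = 1 := by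
          rw [← Real.exp_add]; simp
        nlinarith [Real.exp_pos (t - s), Real.exp_pos (-(t - s))]
      have hpos : 0 < 1 - (t - s) := by linarith
      calc s * exp (t - s) ≤ s * (1 / (1 - (t - s))) := by gcongr
        _ ≤ t := by
          rw [mul_one_div, div_le_iff₀ hpos]
          nlinarith
  have h2 : exp (-s) = exp (t - s) * exp (-t) := by
    rw [← Real.exp_add]; congr 1; ring
  rw [h2, ← mul_assoc]
  exact mul_le_mul_of_nonneg_right h1 (Real.exp_pos _).le

/-- `s ↦ s * exp (-s)` is antitone on `[1, ∞)`. -/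
lemma mul_exp_neg_le_of_one_le {s t : ℝ} (hs : 1 ≤ s) (hst : s ≤ t) :
    t * exp (-t) ≤ s * exp (-s) := by
  have h1 : t ≤ s * exp (t - s) := by
    have := Real.add_one_le_exp (t - s)
    nlinarith
  have h2 : exp (-s) = exp (t - s) * exp (-t) := by
    rw [← Real.exp_add]; congr 1; ring
  rw [h2, ← mul_assoc]
  exact mul_le_mul_of_nonneg_right h1 (Real.exp_pos _).le

/-- `s * exp (-s) ≤ exp (-1)` for all real `s`. -/
lemma mul_exp_neg_le_exp_neg_one (s : ℝ) : s * exp (-s) ≤ exp (-1) := by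
  rcases le_total s 0 with h | h
  · exact le_trans (mul_nonpos_of_nonpos_of_nonneg h (Real.exp_pos _).le) (Real.exp_pos _).le
  rcases le_total s 1 with h1 | h1
  · simpa using mul_exp_neg_le_of_le_one h h1 le_rfl
  · simpa using mul_exp_neg_le_of_one_le le_rfl h1

/-- Left endpoint of the level set. -/
noncomputable def s1 (k : ℝ) : ℝ := Real.log k / (k - 1)

/-- Right endpoint of the level set. -/
noncomputable def s2 (k : ℝ) : ℝ := k * s1 k

/-- The level. -/
noncomputable def lam (k : ℝ) : ℝ := s1 k * Real.exp (-(s1 k))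

lemma s1_pos {k : ℝ} (hk : 1 < k) : 0 < s1 k :=
  div_pos (Real.log_pos hk) (by linarith)

lemma s1_lt_one {k : ℝ} (hk : 1 < k) : s1 k < 1 := by
  unfold s1
  rw [div_lt_one (by linarith)]
  exact Real.log_lt_sub_one_of_pos (by linarith) (by linarith)

lemma inv_le_s1 {k : ℝ} (hk : 1 < k) : 1 / k ≤ s1 k := by
  unfold s1
  have hk0 : 0 < k := by linarith
  rw [div_le_div_iff₀ hk0 (by linarith)]
  have h := Real.log_le_sub_one_of_pos (inv_pos.mpr hk0)
  rw [Real.log_inv] at h
  have h3 : k * k⁻¹ = 1 := mul_inv_cancel₀ hk0.ne'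
  nlinarith

lemma one_lt_s2 {k : ℝ} (hk : 1 < k) : 1 < s2 k := by
  unfold s2 s1
  have hk0 : 0 < k := by linarith
  rw [← mul_div_assoc, lt_div_iff₀ (by linarith)]
  have h := Real.log_lt_sub_one_of_pos (inv_pos.mpr hk0) (by
    intro h; have : k = 1 := by simpa using congrArg (fun x => x⁻¹) h
    linarith)
  rw [Real.log_inv] at h
  have h3 : k * k⁻¹ = 1 := mul_inv_cancel₀ hk0.ne'
  nlinarith

lemma s1_lt_s2 {k : ℝ} (hk : 1 < k) : s1 k < s2 k :=
  (s1_lt_one hk).trans (one_lt_s2 hk)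

lemma s2_sub_s1 (k : ℝ) (hk : 1 < k) : s2 k - s1 k = Real.log k := by
  unfold s2 s1
  have : k - 1 ≠ 0 := by linarith
  field_simp

lemma lam_eq_s2 {k : ℝ} (hk : 1 < k) : s2 k * Real.exp (-(s2 k)) = lam k := by
  have hk0 : 0 < k := by linarith
  have h1 : -(s2 k) = -(s1 k) + -Real.log k := by
    have := s2_sub_s1 k hk; linarith
  rw [h1, Real.exp_add, Real.exp_neg (Real.log k), Real.exp_log hk0]
  unfold lam s2
  field_simp

lemma lam_pos {k : ℝ} (hk : 1 < k) : 0 < lam k :=
  mul_pos (s1_pos hk) (Real.exp_pos _)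

lemma lam_le {k : ℝ} : lam k ≤ Real.exp (-1) := mul_exp_neg_le_exp_neg_one _

/-- On `[s1 k, s2 k]` the weight is at least the level. -/
lemma lam_le_of_mem {k : ℝ} (hk : 1 < k) {s : ℝ} (h1 : s1 k ≤ s) (h2 : s ≤ s2 k) :
    lam k ≤ s * Real.exp (-s) := by
  rcases le_total s 1 with h | h
  · exact mul_exp_neg_le_of_le_one (s1_pos hk).le h1 h
  · rw [← lam_eq_s2 hk]
    exact mul_exp_neg_le_of_one_le h h2

/-- Left of `s1 k` the weight is at most the level. -/
lemma le_lam_of_le_s1 {k : ℝ} (hk : 1 < k) {s : ℝ} (h1 : s ≤ s1 k) :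
    s * Real.exp (-s) ≤ lam k := by
  rcases le_total s 0 with h | h
  · exact le_trans (mul_nonpos_of_nonpos_of_nonneg h (Real.exp_pos _).le) (lam_pos hk).le
  · exact mul_exp_neg_le_of_le_one h h1 (s1_lt_one hk).le

/-- Right of `s2 k` the weight is at most the level. -/
lemma le_lam_of_s2_le {k : ℝ} (hk : 1 < k) {s : ℝ} (h2 : s2 k ≤ s) :
    s * Real.exp (-s) ≤ lam k := by
  rw [← lam_eq_s2 hk]
  exact mul_exp_neg_le_of_one_le (one_lt_s2 hk).le h2

lemma continuousOn_s1 : ContinuousOn s1 (Ioi (1 : ℝ)) := by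
  unfold s1
  apply ContinuousOn.div
  · exact Real.continuousOn_log.mono (fun x hx => by
      have : (1:ℝ) < x := hx
      simp only [mem_compl_iff, mem_singleton_iff]; linarith)
  · fun_prop
  · intro x hx
    have : (1:ℝ) < x := hx
    linarith

lemma continuousOn_s2 : ContinuousOn s2 (Ioi (1 : ℝ)) := by
  unfold s2
  exact continuousOn_id.mul continuousOn_s1

lemma continuousOn_lam : ContinuousOn lam (Ioi (1 : ℝ)) := by
  unfold lam
  exact continuousOn_s1.mul (Real.continuous_exp.comp_continuousOn continuousOn_s1.neg)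

/-- The level tends to `0` as `k → ∞` (quantitative form). -/
lemma lam_lt_of_large {ε : ℝ} (hε : 0 < ε) {k : ℝ} (hk : 1 < k) (hk' : 4 / ε ^ 2 ≤ k) :
    lam k < ε := by
  have hk0 : 0 < k := by linarith
  have hsq : 0 < Real.sqrt k := Real.sqrt_pos.mpr hk0
  have hsq1 : 1 < Real.sqrt k := by
    rw [show (1:ℝ) = Real.sqrt 1 by simp]
    exact Real.sqrt_lt_sqrt (by norm_num) hk
  have hss : Real.sqrt k * Real.sqrt k = k := Real.mul_self_sqrt hk0.le
  -- log k ≤ 2 (√k - 1)
  have hlog : Real.log k ≤ 2 * (Real.sqrt k - 1) := by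
    have h := Real.log_le_sub_one_of_pos hsq
    have h2 : Real.log k = 2 * Real.log (Real.sqrt k) := by
      rw [Real.log_sqrt hk0.le]; ring
    linarith
  have hs1 : s1 k ≤ 2 / (Real.sqrt k + 1) := by
    unfold s1
    rw [div_le_div_iff₀ (by linarith) (by linarith)]
    nlinarith
  have h2 : 2 / (Real.sqrt k + 1) < ε := by
    rw [div_lt_iff₀ (by linarith)]
    -- 2 ≤ ε √k  since 4 ≤ ε² k
    have h4 : 4 ≤ ε ^ 2 * k := by
      have := (div_le_iff₀ (by positivity : (0:ℝ) < ε ^ 2)).mp hk'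
      linarith
    have h5 : 2 ≤ ε * Real.sqrt k := by
      by_contra hcon
      have hcon := not_le.mp hcon
      have h6 : (ε * Real.sqrt k) ^ 2 < 2 ^ 2 := by
        apply pow_lt_pow_left₀ hcon (by positivity) (by norm_num)
      have h7 : (ε * Real.sqrt k) ^ 2 = ε ^ 2 * k := by
        rw [mul_pow, sq (Real.sqrt k), hss]
      linarith
    linarith
  have h3 : lam k ≤ s1 k := by
    unfold lam
    have : Real.exp (-(s1 k)) ≤ 1 := by
      rw [Real.exp_le_one_iff]; linarith [s1_pos hk]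
    nlinarith [s1_pos hk]
  linarith

/-- The level tends to `exp (-1)` as `k → 1⁺` (quantitative form). -/
lemma lam_gt_of_near_one {ε : ℝ} {k : ℝ} (hk : 1 < k) (hk' : k ≤ 1 + ε) :
    Real.exp (-1) - ε < lam k := by
  have hk0 : 0 < k := by linarith
  have h1 : (1 / k) * Real.exp (-(1 / k)) ≤ lam k :=
    mul_exp_neg_le_of_le_one (by positivity) (inv_le_s1 hk) (s1_lt_one hk).le
  have h2 : Real.exp (-1) ≤ Real.exp (-(1 / k)) := by
    apply Real.exp_le_exp.mpr
    have : 1 / k ≤ 1 := by rw [div_le_one hk0]; linarith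
    linarith
  have h3 : Real.exp (-1) < 1 := by
    rw [Real.exp_lt_one_iff]; norm_num
  have h4 : 0 < Real.exp (-1) := Real.exp_pos _
  -- exp(-1) - lam k ≤ exp(-1) (1 - 1/k) < k - 1 ≤ ε
  have h5 : 1 - 1 / k < k - 1 := by
    have : 1 / k = k⁻¹ := one_div k
    have h6 : k * k⁻¹ = 1 := mul_inv_cancel₀ hk0.ne'
    have h7 : 0 < k⁻¹ := inv_pos.mpr hk0
    rw [this]
    nlinarith
  have h8 : 0 < 1 / k := by positivity
  have h9 : 1 / k ≤ 1 := by rw [div_le_one hk0]; linarith
  nlinarith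

end Crest.Agent.Lead
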