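import Mathlib
import Crest.Agent.Helper7.S0423Defs
import Crest.Agent.Lead.LevelSet

/-!
# Level sets of the Gamma(2) density `gw` (package C0 for S0423, in terms of helper7's `gw`)
-/

set_option autoImplicit false

namespace Crest.Agent.Lead

open Real Set Crest.Agent.Helper7

lemma gw_nonneg (s : ℝ) : 0 ≤ gw s := by
  unfold gw
  split_ifs with h
  · exact le_rfl
  · exact mul_nonneg (not_le.mp h).le (Real.exp_pos _).le

lemma gw_le_exp_neg_one (s : ℝ) : gw s ≤ Real.exp (-1) := by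
  unfold gw
  split_ifs with h
  · exact (Real.exp_pos _).le
  · exact mul_exp_neg_le_exp_neg_one s

lemma gw_of_pos {s : ℝ} (hs : 0 < s) : gw s = s * Real.exp (-s) := by
  unfold gw
  rw [if_neg (not_le.mpr hs)]

/-- On `[s1 k, s2 k]` the weight `gw` is at least the level `lam k`. -/
lemma lam_le_gw {k : ℝ} (hk : 1 < k) {s : ℝ} (h1 : s1 k ≤ s) (h2 : s ≤ s2 k) :
    lam k ≤ gw s := by
  rw [gw_of_pos (lt_of_lt_of_le (s1_pos hk) h1)]
  exact lam_le_of_mem hk h1 h2

/-- Left of `s1 k` the weight `gw` is at most the level `lam k`. -/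
lemma gw_le_lam_of_le_s1 {k : ℝ} (hk : 1 < k) {s : ℝ} (h1 : s ≤ s1 k) :
    gw s ≤ lam k := by
  unfold gw
  split_ifs with h
  · exact (lam_pos hk).le
  · exact le_lam_of_le_s1 hk h1

/-- Right of `s2 k` the weight `gw` is at most the level `lam k`. -/
lemma gw_le_lam_of_s2_le {k : ℝ} (hk : 1 < k) {s : ℝ} (h2 : s2 k ≤ s) :
    gw s ≤ lam k := by
  have hs : 0 < s := lt_of_lt_of_le (by linarith [one_lt_s2 hk]) h2
  rw [gw_of_pos hs]
  exact le_lam_of_s2_le hk h2

/-- The sign pattern used in the chord comparison: if `x ≥ 0` exactly on `[s1 k, s2 k]`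
(in the weak sense stated), then `0 ≤ x * (gw s - lam k)`. -/
lemma mul_gw_sub_lam_nonneg {k : ℝ} (hk : 1 < k) {s x : ℝ}
    (hin : s1 k ≤ s → s ≤ s2 k → 0 ≤ x) (hleft : s ≤ s1 k → x ≤ 0)
    (hright : s2 k ≤ s → x ≤ 0) : 0 ≤ x * (gw s - lam k) := by
  rcases le_total s (s1 k) with h | h
  · exact mul_nonneg_of_nonpos_of_nonpos (hleft h) (by linarith [gw_le_lam_of_le_s1 hk h])
  rcases le_total s (s2 k) with h' | h'
  · exact mul_nonneg (hin h h') (by linarith [lam_le_gw hk h h'])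
  · exact mul_nonneg_of_nonpos_of_nonpos (hright h') (by linarith [gw_le_lam_of_s2_le hk h'])

end Crest.Agent.Lead
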