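import Mathlib
import Crest.Agent.Row211.Defs
import Crest.Agent.Helper9.Area
import Crest.Agent.Helper9.Proj

/-!
# Row 211, package D2 (lead): Riemann-sum side of the radial sweep lemma (S0328)

Partition lemmas and the Riemann-sum estimate used to derive S0328 from the one-piece lemma.
-/

set_option autoImplicit false
open MeasureTheory
open scoped ENNReal

namespace Crest.Agent.Lead.Sweep

open Crest.Agent.Row211

/-- every point of `[t 0, t last]` lies in one of the pieces of the partition -/
theorem partition_cover (N : ℕ) (t : Fin (N + 1) → ℝ) (hlt : t 0 < t (Fin.last N)) (τ : ℝ)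
    (h0 : t 0 ≤ τ) (h1 : τ ≤ t (Fin.last N)) :
    ∃ i : Fin N, t i.castSucc ≤ τ ∧ τ ≤ t i.succ := by
  by_contra hcon
  push Not at hcon
  have hall : ∀ k : Fin (N + 1), t k ≤ τ := by
    intro k
    induction k using Fin.induction with
    | zero => exact h0
    | succ i ih => exact (hcon i ih).le
  have hN : N ≠ 0 := by
    rintro rfl
    exact lt_irrefl _ hlt
  obtain ⟨n, rfl⟩ := Nat.exists_eq_succ_of_ne_zero hN
  have := hcon (Fin.last n) (hall _)
  rw [Fin.succ_last] at this
  exact absurd h1 (not_le.mpr this)

/-- telescoping sum of the mesh widths -/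
theorem sum_widths (N : ℕ) (t : Fin (N + 1) → ℝ) :
    ∑ i : Fin N, (t i.succ - t i.castSucc) = t (Fin.last N) - t 0 := by
  induction N with
  | zero => simp
  | succ n ih =>
    rw [Fin.sum_univ_castSucc]
    have := ih (fun k => t k.castSucc)
    simp only [Fin.succ_castSucc] at *
    rw [this]
    simp only [Fin.succ_last, Fin.castSucc_zero]
    ring

/-- additivity of the interval integral over a partition -/
theorem sum_integrals (F : ℝ → ℝ) (N : ℕ) (t : Fin (N + 1) → ℝ)
    (hF : ∀ i : Fin N, IntervalIntegrable F volume (t i.castSucc) (t i.succ)) :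
    ∑ i : Fin N, ∫ τ in (t i.castSucc)..(t i.succ), F τ = ∫ τ in (t 0)..(t (Fin.last N)), F τ := by
  induction N with
  | zero => simp
  | succ n ih =>
    rw [Fin.sum_univ_castSucc]
    have h1 := ih (fun k => t k.castSucc) (fun i => by
      have := hF i.castSucc
      simpa only [Fin.succ_castSucc] using this)
    simp only [Fin.succ_castSucc] at *
    rw [h1]
    simp only [Fin.succ_last, Fin.castSucc_zero]
    have hint : IntervalIntegrable F volume (t 0) (t (Fin.last n).castSucc) := by
      have key : ∀ k : Fin (n + 1), IntervalIntegrable F volume (t 0) (t k.castSucc) := by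
        intro k
        induction k using Fin.induction with
        | zero => simp
        | succ i ih2 =>
          have := hF i.castSucc
          simp only [Fin.succ_castSucc] at this
          exact ih2.trans this
      exact key _
    have h2 := hF (Fin.last n)
    simp only [Fin.succ_last] at h2
    exact intervalIntegral.integral_add_adjacent_intervals hint h2

/-- Riemann sums against values uniformly close to the integrand on each piece -/
theorem riemann_close (F : ℝ → ℝ) (N : ℕ) (t : Fin (N + 1) → ℝ) (ht : StrictMono t)
    (hF : ContinuousOn F (Set.Icc (t 0) (t (Fin.last N)))) (v : Fin N → ℝ) (ε : ℝ)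
    (hv : ∀ i : Fin N, ∀ τ ∈ Set.Icc (t i.castSucc) (t i.succ), |v i - F τ| ≤ ε) :
    |∑ i : Fin N, v i * (t i.succ - t i.castSucc) - ∫ τ in (t 0)..(t (Fin.last N)), F τ|
      ≤ ε * (t (Fin.last N) - t 0) := by
  have hmono := ht.monotone
  have hsub : ∀ i : Fin N, Set.Icc (t i.castSucc) (t i.succ) ⊆ Set.Icc (t 0) (t (Fin.last N)) := by
    intro i
    apply Set.Icc_subset_Icc
    · exact hmono (Fin.zero_le _)
    · exact hmono (Fin.le_last _)
  have hle : ∀ i : Fin N, t i.castSucc ≤ t i.succ := fun i =>
    hmono (Fin.castSucc_lt_succ).le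
  have hint : ∀ i : Fin N, IntervalIntegrable F volume (t i.castSucc) (t i.succ) := by
    intro i
    apply ContinuousOn.intervalIntegrable
    rw [Set.uIcc_of_le (hle i)]
    exact hF.mono (hsub i)
  rw [← sum_integrals F N t hint, ← Finset.sum_sub_distrib]
  calc |∑ i : Fin N, (v i * (t i.succ - t i.castSucc) - ∫ τ in (t i.castSucc)..(t i.succ), F τ)|
      ≤ ∑ i : Fin N, |v i * (t i.succ - t i.castSucc) - ∫ τ in (t i.castSucc)..(t i.succ), F τ| :=
        Finset.abs_sum_le_sum_abs _ _
    _ ≤ ∑ i : Fin N, ε * (t i.succ - t i.castSucc) := by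
        apply Finset.sum_le_sum
        intro i _
        have h1 : v i * (t i.succ - t i.castSucc) = ∫ τ in (t i.castSucc)..(t i.succ), v i := by
          rw [intervalIntegral.integral_const, smul_eq_mul, mul_comm]
        rw [h1, ← intervalIntegral.integral_sub (intervalIntegrable_const) (hint i)]
        have h2 := intervalIntegral.norm_integral_le_of_norm_le_const
          (a := t i.castSucc) (b := t i.succ) (f := fun τ => v i - F τ) (C := ε) (by
            intro τ hτ
            rw [Set.uIoc_of_le (hle i)] at hτ
            rw [Real.norm_eq_abs]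
            exact hv i τ ⟨hτ.1.le, hτ.2⟩)
        rw [Real.norm_eq_abs, abs_of_nonneg (sub_nonneg.mpr (hle i))] at h2
        exact h2
    _ = ε * (t (Fin.last N) - t 0) := by
        rw [← Finset.mul_sum, sum_widths]

end Crest.Agent.Lead.Sweep
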