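import Mathlib
import Crest.Agent.Row211.Defs
import Crest.Agent.Helper9.Area
import Crest.Agent.Helper9.Proj

/-!
# Row 211, package D2 (lead): geometric side lemmas for S0328

* projection of a set contained in a cylinder lies in the base;
* the `s = 0` fan triangle lies in the piece of the sweep;
* area of the projected fan triangle.
-/

set_option autoImplicit false
open MeasureTheory
open scoped ENNReal

namespace Crest.Agent.Lead.Sweep

open Crest.Agent.Row211
open Crest.Agent.Helper9.Area (proj gram)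

theorem gram_eq_gram2 (a b : E3) : gram a b = gram2 a b := rfl

/-- a triangle with vertices orthogonal to `d` is orthogonal to `d` -/
theorem hull_perp (d p q r : E3) (hp : inner ℝ p d = 0) (hq : inner ℝ q d = 0)
    (hr : inner ℝ r d = 0) : ∀ y ∈ convexHull ℝ ({p, q, r} : Set E3), inner ℝ y d = 0 := by
  have hconv : Convex ℝ {y : E3 | inner ℝ y d = 0} := by
    intro x hx y hy s t _ _ _
    simp only [Set.mem_ofPred_eq] at hx hy ⊢
    rw [inner_add_left, inner_smul_left, inner_smul_left, hx, hy]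
    simp
  have hsub : ({p, q, r} : Set E3) ⊆ {y : E3 | inner ℝ y d = 0} := by
    intro x hx
    rcases hx with rfl | rfl | rfl
    · exact hp
    · exact hq
    · exact hr
  exact fun y hy => convexHull_min hsub hconv hy

/-- the projection along `d` of a set inside a cylinder with direction `d` over a triangle
orthogonal to `d` lies in the triangle -/
theorem proj_image_subset_of_cyl (d p q r : E3) (hd : d ≠ 0) (hp : inner ℝ p d = 0)
    (hq : inner ℝ q d = 0) (hr : inner ℝ r d = 0) (S : Set E3)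
    (hS : S ⊆ {x : E3 | ∃ y ∈ convexHull ℝ ({p, q, r} : Set E3), ∃ σ : ℝ, x = y + σ • d}) :
    proj d '' S ⊆ convexHull ℝ ({p, q, r} : Set E3) := by
  rintro _ ⟨x, hx, rfl⟩
  obtain ⟨y, hy, σ, rfl⟩ := hS hx
  rw [Crest.Agent.Helper9.Area.proj_add_smul d y σ hd,
    Crest.Agent.Helper9.Area.proj_of_perp d y (hull_perp d p q r hp hq hr y hy)]
  exact hy

/-- the fan triangle at `s = 0` lies in the piece -/
theorem fan_subset_piece (e a b p₀ : E3) (w : ℝ → E3) (R : ℝ → ℝ) (L : ℝ) (hL : 0 ≤ L)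
    (τ₀ τ₁ m : ℝ) (hτ : τ₀ ≤ τ₁) (hm0 : 0 ≤ m) (hm : ∀ τ ∈ Set.Icc τ₀ τ₁, m ≤ R τ) :
    convexHull ℝ ({p₀, p₀ + m • (a + τ₀ • b), p₀ + m • (a + τ₁ • b)} : Set E3) ⊆
      {x : E3 | ∃ τ ∈ Set.Icc τ₀ τ₁, ∃ ρ ∈ Set.Icc 0 (R τ), ∃ s : ℝ, |s| ≤ L ∧
        x = p₀ + ρ • (a + τ • b) + s • (e + w τ)} := by
  intro x hx
  rw [Crest.Agent.Helper9.Area.convexHull_triple_eq] at hx
  obtain ⟨s', t', hs', ht', hst, rfl⟩ := hx
  by_cases h0 : s' + t' = 0
  · have hs0 : s' = 0 := by linarith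
    have ht0 : t' = 0 := by linarith
    refine ⟨τ₀, ⟨le_refl _, hτ⟩, 0, ⟨le_refl _, le_trans hm0 (hm τ₀ ⟨le_refl _, hτ⟩)⟩, 0, ?_, ?_⟩
    · simpa using hL
    · simp [hs0, ht0]
  · have hpos : 0 < s' + t' := lt_of_le_of_ne (by linarith) (Ne.symm h0)
    set τ := (s' * τ₀ + t' * τ₁) / (s' + t') with hτdef
    have hτmem : τ ∈ Set.Icc τ₀ τ₁ := by
      constructor
      · rw [hτdef, le_div_iff₀ hpos]
        nlinarith
      · rw [hτdef, div_le_iff₀ hpos]
        nlinarith
    refine ⟨τ, hτmem, (s' + t') * m, ⟨by positivity, ?_⟩, 0, ?_, ?_⟩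
    · calc (s' + t') * m ≤ 1 * m := mul_le_mul_of_nonneg_right hst hm0
        _ = m := one_mul m
        _ ≤ R τ := hm τ hτmem
    · simpa using hL
    · have hτeq : (s' + t') * τ = s' * τ₀ + t' * τ₁ := by
        rw [hτdef]
        field_simp
      have e1 : ((s' + t') * m) • (a + τ • b) = ((s' + t') * m) • a + (m * ((s' + t') * τ)) • b := by
        rw [smul_add, smul_smul]
        congr 2
        ring
      rw [e1, hτeq]
      simp only [add_sub_cancel_left, zero_smul, add_zero, smul_add, smul_smul, add_smul, mul_add]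
      have e4 : m * (s' * τ₀) = s' * (m * τ₀) := by ring
      have e5 : m * (t' * τ₁) = t' * (m * τ₁) := by ring
      rw [e4, e5, add_mul, add_smul]
      abel

theorem gram_fan (a b : E3) (τ₀ τ₁ m : ℝ) :
    gram (m • (a + τ₀ • b)) (m • (a + τ₁ • b)) = (m ^ 2 * (τ₁ - τ₀)) ^ 2 * gram a b := by
  rw [Crest.Agent.Helper9.Area.gram_coord, Crest.Agent.Helper9.Area.gram_coord]
  simp only [PiLp.add_apply, PiLp.smul_apply, smul_eq_mul]
  ring

/-- area of the projection along `e + wc` of the fan triangle -/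
theorem area_proj_fan (e a b p₀ wc : E3) (he : ‖e‖ = 1) (ha : inner ℝ a e = 0)
    (hb : inner ℝ b e = 0) (hwc : inner ℝ wc e = 0) (τ₀ τ₁ m : ℝ) (hτ : τ₀ ≤ τ₁) :
    μHE[2] (proj (e + wc) '' convexHull ℝ
        ({p₀, p₀ + m • (a + τ₀ • b), p₀ + m • (a + τ₁ • b)} : Set E3)) =
      ENNReal.ofReal (Real.sqrt (gram2 a b) * m ^ 2 * (τ₁ - τ₀) /
        (2 * Real.sqrt (1 + ‖wc‖ ^ 2))) := by
  rw [Crest.Agent.Helper9.Area.proj_image_triangle, Crest.Agent.Helper9.Area.area_triangle]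
  have e1 : proj (e + wc) (p₀ + m • (a + τ₀ • b)) - proj (e + wc) p₀
      = proj (e + wc) (m • (a + τ₀ • b)) := by
    rw [← Crest.Agent.Helper9.Area.projL_apply, ← Crest.Agent.Helper9.Area.projL_apply,
      ← Crest.Agent.Helper9.Area.projL_apply, ← map_sub, add_sub_cancel_left]
  have e2 : proj (e + wc) (p₀ + m • (a + τ₁ • b)) - proj (e + wc) p₀
      = proj (e + wc) (m • (a + τ₁ • b)) := by
    rw [← Crest.Agent.Helper9.Area.projL_apply, ← Crest.Agent.Helper9.Area.projL_apply,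
      ← Crest.Agent.Helper9.Area.projL_apply, ← map_sub, add_sub_cancel_left]
  have hA : ∀ τ : ℝ, inner ℝ (m • (a + τ • b)) e = 0 := by
    intro τ
    rw [inner_smul_left, inner_add_left, inner_smul_left, ha, hb]
    simp
  rw [e1, e2, Crest.Agent.Helper9.Area.gram_proj_perp e wc _ _ he (hA τ₀) (hA τ₁) hwc, gram_fan,
    ← gram_eq_gram2]
  congr 1
  have h1 : 0 < 1 + ‖wc‖ ^ 2 := by positivity
  have h2 : 0 ≤ m ^ 2 * (τ₁ - τ₀) := mul_nonneg (sq_nonneg _) (sub_nonneg.mpr hτ)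
  rw [Real.sqrt_div' _ h1.le, Real.sqrt_mul (sq_nonneg _), Real.sqrt_sq h2]
  field_simp

end Crest.Agent.Lead.Sweep
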