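import Mathlib
import Crest.Agent.Row211.Defs
import Crest.Agent.Helper9.Area
import Crest.Agent.Helper9.Proj
import Crest.Agent.Lead.SweepA
import Crest.Agent.Lead.SweepB

/-!
# Row 211, package D2 (lead): S0328 from the one-piece lemma

`OnePiece` is the statement of the one-piece lemma (package D1, see `Row211/PLAN.md`);
`s0328_of_onePiece` derives the radial sweep lemma S0328 from it.
-/

set_option autoImplicit false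
open MeasureTheory
open scoped ENNReal

namespace Crest.Agent.Lead.Sweep

open Crest.Agent.Row211
open Crest.Agent.Helper9.Area (proj gram)

/-- the statement of the one-piece lemma (package D1) -/
def OnePiece : Prop :=
  ∀ (e a b p₀ : E3) (_ : ‖e‖ = 1) (_ : inner ℝ a e = 0) (_ : inner ℝ b e = 0)
    (_ : inner ℝ p₀ e = 0) (_ : LinearIndependent ℝ ![a, b]) (L : ℝ) (_ : 0 ≤ L)
    (τ₀ τ₁ c : ℝ) (_ : τ₀ < τ₁) (_ : c ∈ Set.Icc τ₀ τ₁)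
    (w : ℝ → E3) (_ : ∀ t ∈ Set.Icc τ₀ τ₁, inner ℝ (w t) e = 0)
    (lam : ℝ → ℝ) (_ : ContinuousOn lam (Set.Icc τ₀ τ₁))
    (_ : ∀ t ∈ Set.Icc τ₀ τ₁, HasDerivWithinAt w (lam t • (a + t • b)) (Set.Icc τ₀ τ₁) t)
    (Lam : ℝ) (_ : ∀ t ∈ Set.Icc τ₀ τ₁, |lam t| ≤ Lam)
    (H ν : ℝ) (_ : 0 ≤ H) (_ : 0 < ν) (_ : L * Lam * (τ₁ - τ₀) ≤ ν),
    ∃ p q r : E3,
      (inner ℝ p (e + w c) = 0 ∧ inner ℝ q (e + w c) = 0 ∧ inner ℝ r (e + w c) = 0) ∧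
      AffineIndependent ℝ ![p, q, r] ∧
      {x : E3 | ∃ τ ∈ Set.Icc τ₀ τ₁, ∃ ρ ∈ Set.Icc 0 H, ∃ s : ℝ, |s| ≤ L ∧
          x = p₀ + ρ • (a + τ • b) + s • (e + w τ)} ⊆
        {x : E3 | ∃ y ∈ convexHull ℝ ({p, q, r} : Set E3), ∃ σ : ℝ, x = y + σ • (e + w c)} ∧
      μHE[2] (convexHull ℝ ({p, q, r} : Set E3)) =
        ENNReal.ofReal (Real.sqrt (gram2 a b) * (H + 3 * ν) ^ 2 * (τ₁ - τ₀) /
          (2 * Real.sqrt (1 + ‖w c‖ ^ 2)))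

theorem e_add_ne_zero (e v : E3) (he : ‖e‖ = 1) (hv : inner ℝ v e = 0) : e + v ≠ 0 := by
  intro h
  have h1 : inner ℝ (e + v) e = 0 := by rw [h]; simp
  rw [inner_add_left, hv, real_inner_self_eq_norm_sq, he] at h1
  norm_num at h1

/-- the elementary estimate behind the Riemann sums -/
theorem value_close (hh Rτ Gc Gτ M ε₁ : ℝ) (hh0 : 0 ≤ hh) (hR0 : 0 ≤ Rτ) (hRM : Rτ ≤ M)
    (hclose : |hh - Rτ| ≤ 5 * ε₁) (hε0 : 0 < ε₁) (hε1 : ε₁ ≤ 1) (hGc0 : 0 ≤ Gc) (hGc : Gc ≤ 1 / 2)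
    (hG : |Gc - Gτ| ≤ ε₁) :
    |hh ^ 2 * Gc - Rτ ^ 2 * Gτ| ≤ (M ^ 2 + 5 * M + 13) * ε₁ := by
  have hM0 : 0 ≤ M := le_trans hR0 hRM
  have h1 : hh ^ 2 * Gc - Rτ ^ 2 * Gτ = (hh - Rτ) * (hh + Rτ) * Gc + Rτ ^ 2 * (Gc - Gτ) := by ring
  rw [h1]
  have hc := abs_le.mp hclose
  have hhle : hh ≤ M + 5 := by linarith
  have h2 : |(hh - Rτ) * (hh + Rτ) * Gc| ≤ 5 * ε₁ * (2 * M + 5) * (1 / 2) := by
    rw [abs_mul, abs_mul, abs_of_nonneg hGc0, abs_of_nonneg (by linarith : 0 ≤ hh + Rτ)]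
    have : |hh - Rτ| * (hh + Rτ) ≤ 5 * ε₁ * (2 * M + 5) := by
      apply mul_le_mul hclose (by linarith) (by linarith) (by positivity)
    exact mul_le_mul this hGc hGc0 (by positivity)
  have h3 : |Rτ ^ 2 * (Gc - Gτ)| ≤ M ^ 2 * ε₁ := by
    rw [abs_mul, abs_of_nonneg (sq_nonneg _)]
    have : Rτ ^ 2 ≤ M ^ 2 := by nlinarith
    exact mul_le_mul this hG (abs_nonneg _) (sq_nonneg _)
  calc |(hh - Rτ) * (hh + Rτ) * Gc + Rτ ^ 2 * (Gc - Gτ)|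
      ≤ |(hh - Rτ) * (hh + Rτ) * Gc| + |Rτ ^ 2 * (Gc - Gτ)| := abs_add_le _ _
    _ ≤ 5 * ε₁ * (2 * M + 5) * (1 / 2) + M ^ 2 * ε₁ := add_le_add h2 h3
    _ ≤ (M ^ 2 + 5 * M + 13) * ε₁ := by nlinarith

theorem unif_cont_Icc (f : ℝ → ℝ) (α β : ℝ) (hf : ContinuousOn f (Set.Icc α β)) (ε : ℝ)
    (hε : 0 < ε) :
    ∃ δ > 0, ∀ x ∈ Set.Icc α β, ∀ y ∈ Set.Icc α β, |x - y| < δ → |f x - f y| < ε := by
  have h := isCompact_Icc.uniformContinuousOn_of_continuous hf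
  rw [Metric.uniformContinuousOn_iff] at h
  obtain ⟨δ, hδ, h⟩ := h ε hε
  refine ⟨δ, hδ, fun x hx y hy hxy => ?_⟩
  have := h x hx y hy (by rw [Real.dist_eq]; exact hxy)
  rwa [Real.dist_eq] at this

/-- the Riemann sum of `κ h_i² Δ_i / (2 √(1 + ‖w c_i‖²))` is close to the integral -/
theorem key_sum (a b : E3) (α β : ℝ) (R : ℝ → ℝ) (w : ℝ → E3)
    (hRc : ContinuousOn R (Set.Icc α β)) (hwc : ContinuousOn w (Set.Icc α β))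
    (hR0 : ∀ τ ∈ Set.Icc α β, 0 ≤ R τ) (M : ℝ) (hRM : ∀ τ ∈ Set.Icc α β, R τ ≤ M)
    (ε₁ : ℝ) (hε0 : 0 < ε₁) (hε1 : ε₁ ≤ 1) (η : ℝ)
    (hη : Real.sqrt (gram2 a b) * (β - α) * (M ^ 2 + 5 * M + 13) * ε₁ ≤ η)
    (N : ℕ) (t : Fin (N + 1) → ℝ) (c : Fin N → ℝ) (ht : StrictMono t) (ht0 : t 0 = α)
    (htN : t (Fin.last N) = β)
    (hsub : ∀ i : Fin N, Set.Icc (t i.castSucc) (t i.succ) ⊆ Set.Icc α β)
    (hGclose : ∀ i : Fin N, ∀ τ ∈ Set.Icc (t i.castSucc) (t i.succ),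
      |1 / (2 * Real.sqrt (1 + ‖w (c i)‖ ^ 2)) - 1 / (2 * Real.sqrt (1 + ‖w τ‖ ^ 2))| ≤ ε₁)
    (hh : Fin N → ℝ) (hh0 : ∀ i, 0 ≤ hh i)
    (hhclose : ∀ i : Fin N, ∀ τ ∈ Set.Icc (t i.castSucc) (t i.succ), |hh i - R τ| ≤ 5 * ε₁) :
    |∑ i : Fin N, Real.sqrt (gram2 a b) * hh i ^ 2 * (t i.succ - t i.castSucc) /
          (2 * Real.sqrt (1 + ‖w (c i)‖ ^ 2)) -
        Real.sqrt (gram2 a b) * ∫ τ in α..β, R τ ^ 2 / (2 * Real.sqrt (1 + ‖w τ‖ ^ 2))| ≤ η := by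
  have hFc : ContinuousOn (fun τ => R τ ^ 2 / (2 * Real.sqrt (1 + ‖w τ‖ ^ 2)))
      (Set.Icc (t 0) (t (Fin.last N))) := by
    rw [ht0, htN]
    apply ContinuousOn.div (hRc.pow 2)
    · exact continuousOn_const.mul
        (Real.continuous_sqrt.comp_continuousOn (continuousOn_const.add (hwc.norm.pow 2)))
    · intro τ _
      positivity
  have hGle : ∀ v : E3, 1 / (2 * Real.sqrt (1 + ‖v‖ ^ 2)) ≤ 1 / 2 := by
    intro v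
    have h1 : (1 : ℝ) ≤ Real.sqrt (1 + ‖v‖ ^ 2) := by
      rw [Real.one_le_sqrt]
      nlinarith [sq_nonneg ‖v‖]
    rw [div_le_div_iff₀ (by positivity) (by norm_num)]
    linarith
  have hrc := riemann_close (fun τ => R τ ^ 2 / (2 * Real.sqrt (1 + ‖w τ‖ ^ 2))) N t ht hFc
    (fun i => hh i ^ 2 * (1 / (2 * Real.sqrt (1 + ‖w (c i)‖ ^ 2)))) ((M ^ 2 + 5 * M + 13) * ε₁)
    (by
      intro i τ hτ
      have hτ' := hsub i hτ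
      have := value_close (hh i) (R τ) (1 / (2 * Real.sqrt (1 + ‖w (c i)‖ ^ 2)))
        (1 / (2 * Real.sqrt (1 + ‖w τ‖ ^ 2))) M ε₁ (hh0 i) (hR0 τ hτ') (hRM τ hτ')
        (hhclose i τ hτ) hε0 hε1 (by positivity) (hGle _) (hGclose i τ hτ)
      have e1 : R τ ^ 2 / (2 * Real.sqrt (1 + ‖w τ‖ ^ 2))
          = R τ ^ 2 * (1 / (2 * Real.sqrt (1 + ‖w τ‖ ^ 2))) := by ring
      rw [e1]
      exact this)
  rw [ht0, htN] at hrc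
  have e2 : ∑ i : Fin N, Real.sqrt (gram2 a b) * hh i ^ 2 * (t i.succ - t i.castSucc) /
        (2 * Real.sqrt (1 + ‖w (c i)‖ ^ 2))
      = Real.sqrt (gram2 a b) * ∑ i : Fin N, hh i ^ 2 * (1 / (2 * Real.sqrt (1 + ‖w (c i)‖ ^ 2))) *
          (t i.succ - t i.castSucc) := by
    rw [Finset.mul_sum]
    apply Finset.sum_congr rfl
    intro i _
    ring
  rw [e2, ← mul_sub, abs_mul, abs_of_nonneg (Real.sqrt_nonneg _)]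
  calc Real.sqrt (gram2 a b) * |∑ i : Fin N, hh i ^ 2 * (1 / (2 * Real.sqrt (1 + ‖w (c i)‖ ^ 2))) *
          (t i.succ - t i.castSucc) - ∫ τ in α..β, R τ ^ 2 / (2 * Real.sqrt (1 + ‖w τ‖ ^ 2))|
      ≤ Real.sqrt (gram2 a b) * ((M ^ 2 + 5 * M + 13) * ε₁ * (β - α)) :=
        mul_le_mul_of_nonneg_left hrc (Real.sqrt_nonneg _)
    _ = Real.sqrt (gram2 a b) * (β - α) * (M ^ 2 + 5 * M + 13) * ε₁ := by ring
    _ ≤ η := hη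

end Crest.Agent.Lead.Sweep
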