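import Mathlib
import Crest.Agent.Row211.Defs
import Crest.Agent.Helper9.Area
import Crest.Agent.Helper9.Proj
import Crest.Agent.Lead.SweepA
import Crest.Agent.Lead.SweepB
import Crest.Agent.Lead.SweepC

/-!
# Row 211, package D2 (lead): S0328 from the one-piece lemma (main assembly)
-/

set_option autoImplicit false
open MeasureTheory
open scoped ENNReal

namespace Crest.Agent.Lead.Sweep

open Crest.Agent.Row211
open Crest.Agent.Helper9.Area (proj gram)

set_option maxHeartbeats 1600000 in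
/-- S0328 (radial sweep lemma) from the one-piece lemma. -/
theorem s0328_of_onePiece (h1 : OnePiece)
    (e a b p₀ : EuclideanSpace ℝ (Fin 3)) (he : ‖e‖ = 1)
    (ha : inner ℝ a e = 0) (hb : inner ℝ b e = 0) (hp₀ : inner ℝ p₀ e = 0)
    (hab : LinearIndependent ℝ ![a, b]) (L : ℝ) (hL : 0 < L) (α β : ℝ) (hαβ : α < β)
    (R : ℝ → ℝ) (hR : ContinuousOn R (Set.Icc α β)) (hR0 : ∀ t ∈ Set.Icc α β, 0 ≤ R t)
    (w : ℝ → EuclideanSpace ℝ (Fin 3)) (hw : ∀ t ∈ Set.Icc α β, inner ℝ (w t) e = 0)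
    (lam : ℝ → ℝ) (hlam : ContinuousOn lam (Set.Icc α β))
    (hw' : ∀ t ∈ Set.Icc α β, HasDerivWithinAt w (lam t • (a + t • b)) (Set.Icc α β) t)
    (η : ℝ) (hη : 0 < η) :
    ∃ δ : ℝ, 0 < δ ∧ ∀ (N : ℕ) (t : Fin (N + 1) → ℝ) (c : Fin N → ℝ),
      StrictMono t → t 0 = α → t (Fin.last N) = β →
      (∀ i : Fin N, t i.succ - t i.castSucc ≤ δ) →
      (∀ i : Fin N, t i.castSucc ≤ c i ∧ c i ≤ t i.succ) →
      (∃ (p q r : Fin N → EuclideanSpace ℝ (Fin 3)),
        (∀ i, inner ℝ (p i) (e + w (c i)) = 0 ∧ inner ℝ (q i) (e + w (c i)) = 0 ∧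
          inner ℝ (r i) (e + w (c i)) = 0) ∧
        (∀ i, AffineIndependent ℝ ![p i, q i, r i]) ∧
        {x : EuclideanSpace ℝ (Fin 3) | ∃ τ ∈ Set.Icc α β, ∃ ρ ∈ Set.Icc 0 (R τ), ∃ s : ℝ, abs s ≤ L ∧
            x = p₀ + ρ • (a + τ • b) + s • (e + w τ)} ⊆
          ⋃ i, {x : EuclideanSpace ℝ (Fin 3) | ∃ y ∈ convexHull ℝ {p i, q i, r i}, ∃ σ : ℝ,
            x = y + σ • (e + w (c i))} ∧
        abs ((∑ i, (μHE[2] (convexHull ℝ ({p i, q i, r i} : Set (EuclideanSpace ℝ (Fin 3))))).toReal) -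
            Real.sqrt (‖a‖ ^ 2 * ‖b‖ ^ 2 - inner ℝ a b ^ 2) *
              ∫ τ in α..β, R τ ^ 2 / (2 * Real.sqrt (1 + ‖w τ‖ ^ 2))) ≤ η) ∧
      abs ((∑ i : Fin N, (μHE[2] ((fun y => y - (inner ℝ y (e + w (c i)) / ‖e + w (c i)‖ ^ 2) • (e + w (c i))) ''
            {x : EuclideanSpace ℝ (Fin 3) | ∃ τ ∈ Set.Icc (t i.castSucc) (t i.succ), ∃ ρ ∈ Set.Icc 0 (R τ),
              ∃ s : ℝ, abs s ≤ L ∧ x = p₀ + ρ • (a + τ • b) + s • (e + w τ)})).toReal) -
          Real.sqrt (‖a‖ ^ 2 * ‖b‖ ^ 2 - inner ℝ a b ^ 2) *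
            ∫ τ in α..β, R τ ^ 2 / (2 * Real.sqrt (1 + ‖w τ‖ ^ 2))) ≤ η := by
  have hκeq : Real.sqrt (‖a‖ ^ 2 * ‖b‖ ^ 2 - inner ℝ a b ^ 2) = Real.sqrt (gram2 a b) := rfl
  rw [hκeq]
  obtain ⟨Lam, hLam⟩ := isCompact_Icc.exists_bound_of_continuousOn hlam
  obtain ⟨M, hM⟩ := isCompact_Icc.exists_bound_of_continuousOn hR
  have hαmem : α ∈ Set.Icc α β := ⟨le_refl _, hαβ.le⟩
  have hLam0 : 0 ≤ Lam := le_trans (norm_nonneg _) (hLam α hαmem)
  have hM0 : 0 ≤ M := le_trans (norm_nonneg _) (hM α hαmem)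
  have hRM : ∀ τ ∈ Set.Icc α β, R τ ≤ M := fun τ hτ => le_trans (le_abs_self _) (hM τ hτ)
  have hLam' : ∀ τ ∈ Set.Icc α β, |lam τ| ≤ Lam := fun τ hτ => hLam τ hτ
  have hwc : ContinuousOn w (Set.Icc α β) := fun τ hτ => (hw' τ hτ).continuousWithinAt
  have hGc : ContinuousOn (fun τ => 1 / (2 * Real.sqrt (1 + ‖w τ‖ ^ 2))) (Set.Icc α β) := by
    apply ContinuousOn.div continuousOn_const
    · exact continuousOn_const.mul
        (Real.continuous_sqrt.comp_continuousOn (continuousOn_const.add (hwc.norm.pow 2)))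
    · intro τ _
      positivity
  set κ := Real.sqrt (gram2 a b) with hκ
  have hκ0 : 0 ≤ κ := Real.sqrt_nonneg _
  set C₀ := M ^ 2 + 5 * M + 13 with hC₀
  have hC₀pos : 0 < C₀ := by positivity
  have hβα : 0 < β - α := sub_pos.mpr hαβ
  set X := κ * (β - α) * C₀ with hX
  have hX0 : 0 ≤ X := by positivity
  set ε₁ := min 1 (η / (X + 1)) with hε₁def
  have hε₁pos : 0 < ε₁ := lt_min one_pos (by positivity)
  have hε₁1 : ε₁ ≤ 1 := min_le_left _ _
  have hε₁η : X * ε₁ ≤ η := by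
    have h1 : ε₁ ≤ η / (X + 1) := min_le_right _ _
    have h2 : X * ε₁ ≤ X * (η / (X + 1)) := mul_le_mul_of_nonneg_left h1 hX0
    have h3 : X * (η / (X + 1)) ≤ η := by
      rw [mul_div_assoc', div_le_iff₀ (by positivity)]
      nlinarith
    linarith
  obtain ⟨δR, hδR, hRu⟩ := unif_cont_Icc R α β hR ε₁ hε₁pos
  obtain ⟨δG, hδG, hGu⟩ := unif_cont_Icc _ α β hGc ε₁ hε₁pos
  have hLL : 0 < L * Lam + 1 := by positivity
  have hδpos : 0 < min (min δR δG) (ε₁ / (L * Lam + 1)) / 2 := by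
    have : 0 < min (min δR δG) (ε₁ / (L * Lam + 1)) := lt_min (lt_min hδR hδG) (by positivity)
    linarith
  refine ⟨min (min δR δG) (ε₁ / (L * Lam + 1)) / 2, hδpos, ?_⟩
  intro N t c ht ht0 htN hmesh hc
  set δ := min (min δR δG) (ε₁ / (L * Lam + 1)) / 2 with hδdef
  have hδ1 : δ < δR := by
    have : min (min δR δG) (ε₁ / (L * Lam + 1)) ≤ δR := le_trans (min_le_left _ _) (min_le_left _ _)
    linarith
  have hδ2 : δ < δG := by
    have : min (min δR δG) (ε₁ / (L * Lam + 1)) ≤ δG := le_trans (min_le_left _ _) (min_le_right _ _)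
    linarith
  have hδ3 : L * Lam * δ ≤ ε₁ := by
    have h1 : min (min δR δG) (ε₁ / (L * Lam + 1)) ≤ ε₁ / (L * Lam + 1) := min_le_right _ _
    have h2 : δ ≤ ε₁ / (L * Lam + 1) := by linarith
    have h3 : (L * Lam + 1) * δ ≤ ε₁ := by
      rw [le_div_iff₀ hLL] at h2
      linarith
    nlinarith
  have hmono := ht.monotone
  have hsub : ∀ i : Fin N, Set.Icc (t i.castSucc) (t i.succ) ⊆ Set.Icc α β := by
    intro i
    rw [← ht0, ← htN]
    exact Set.Icc_subset_Icc (hmono (Fin.zero_le _)) (hmono (Fin.le_last _))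
  have hlt : ∀ i : Fin N, t i.castSucc < t i.succ := fun i => ht Fin.castSucc_lt_succ
  have hcmem : ∀ i : Fin N, c i ∈ Set.Icc (t i.castSucc) (t i.succ) := fun i =>
    ⟨(hc i).1, (hc i).2⟩
  have hdist : ∀ i : Fin N, ∀ τ ∈ Set.Icc (t i.castSucc) (t i.succ), |τ - c i| ≤ δ := by
    intro i τ hτ
    have := hmesh i
    rw [abs_le]
    constructor <;> linarith [hτ.1, hτ.2, (hc i).1, (hc i).2]
  have hRclose : ∀ i : Fin N, ∀ τ ∈ Set.Icc (t i.castSucc) (t i.succ), |R τ - R (c i)| < ε₁ :=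
    fun i τ hτ => hRu τ (hsub i hτ) (c i) (hsub i (hcmem i)) (lt_of_le_of_lt (hdist i τ hτ) hδ1)
  have hGclose : ∀ i : Fin N, ∀ τ ∈ Set.Icc (t i.castSucc) (t i.succ),
      |1 / (2 * Real.sqrt (1 + ‖w (c i)‖ ^ 2)) - 1 / (2 * Real.sqrt (1 + ‖w τ‖ ^ 2))| ≤ ε₁ := by
    intro i τ hτ
    have := hGu (c i) (hsub i (hcmem i)) τ (hsub i hτ) (by
      rw [abs_sub_comm]
      exact lt_of_le_of_lt (hdist i τ hτ) hδ2)
    exact this.le
  have hR0' : ∀ i : Fin N, 0 ≤ R (c i) := fun i => hR0 _ (hsub i (hcmem i))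
  have hpiece := fun i : Fin N =>
    h1 e a b p₀ he ha hb hp₀ hab L hL.le (t i.castSucc) (t i.succ) (c i) (hlt i) (hcmem i) w
      (fun τ hτ => hw τ (hsub i hτ)) lam (hlam.mono (hsub i))
      (fun τ hτ => (hw' τ (hsub i hτ)).mono (hsub i)) Lam (fun τ hτ => hLam' τ (hsub i hτ))
      (R (c i) + ε₁) ε₁ (add_nonneg (hR0' i) hε₁pos.le) hε₁pos (by
        have h2 := hmesh i
        have h3 : 0 ≤ L * Lam := by positivity
        calc L * Lam * (t i.succ - t i.castSucc) ≤ L * Lam * δ :=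
              mul_le_mul_of_nonneg_left h2 h3
          _ ≤ ε₁ := hδ3)
  choose p q r hperp haff hcov harea using hpiece
  have hkey := key_sum a b α β R w hR hwc hR0 M hRM ε₁ hε₁pos hε₁1 η hε₁η N t c ht ht0 htN hsub
    hGclose
  have hup := hkey (fun i => R (c i) + ε₁ + 3 * ε₁)
    (fun i => add_nonneg (add_nonneg (hR0' i) hε₁pos.le) (by positivity)) (by
      intro i τ hτ
      have := abs_lt.mp (hRclose i τ hτ)
      rw [abs_le]
      constructor <;> linarith)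
  have hlo := hkey (fun i => max (R (c i) - ε₁) 0) (fun i => le_max_right _ _) (by
      intro i τ hτ
      have h1 := abs_lt.mp (hRclose i τ hτ)
      have h2 := hR0 τ (hsub i hτ)
      rw [abs_le]
      constructor
      · have := le_max_left (R (c i) - ε₁) 0
        linarith
      · have : max (R (c i) - ε₁) 0 ≤ R τ := max_le (by linarith) h2
        linarith)
  have hdne : ∀ i : Fin N, e + w (c i) ≠ 0 := fun i =>
    e_add_ne_zero e (w (c i)) he (hw _ (hsub i (hcmem i)))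
  have hareaR : ∀ i : Fin N, (μHE[2] (convexHull ℝ ({p i, q i, r i} : Set E3))).toReal
      = κ * (R (c i) + ε₁ + 3 * ε₁) ^ 2 * (t i.succ - t i.castSucc) /
        (2 * Real.sqrt (1 + ‖w (c i)‖ ^ 2)) := by
    intro i
    rw [harea i, ENNReal.toReal_ofReal]
    exact div_nonneg (mul_nonneg (mul_nonneg hκ0 (sq_nonneg _)) (sub_nonneg.mpr (hlt i).le))
      (by positivity)
  refine ⟨⟨p, q, r, hperp, haff, ?_, ?_⟩, ?_⟩
  · -- the cover
    rintro x ⟨τ, hτ, ρ, hρ, s, hs, rfl⟩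
    obtain ⟨i, hi1, hi2⟩ := partition_cover N t (by rw [ht0, htN]; exact hαβ) τ
      (by rw [ht0]; exact hτ.1) (by rw [htN]; exact hτ.2)
    refine Set.mem_iUnion.mpr ⟨i, ?_⟩
    apply hcov i
    refine ⟨τ, ⟨hi1, hi2⟩, ρ, ⟨hρ.1, ?_⟩, s, hs, rfl⟩
    have := abs_lt.mp (hRclose i τ ⟨hi1, hi2⟩)
    linarith [hρ.2]
  · -- the sum of the areas
    have hsum : ∑ i, (μHE[2] (convexHull ℝ ({p i, q i, r i} : Set E3))).toReal
        = ∑ i, κ * (R (c i) + ε₁ + 3 * ε₁) ^ 2 * (t i.succ - t i.castSucc) /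
          (2 * Real.sqrt (1 + ‖w (c i)‖ ^ 2)) := Finset.sum_congr rfl (fun i _ => hareaR i)
    rw [hsum]
    exact hup
  · -- the projected pieces
    have hbounds : ∀ i : Fin N,
        κ * (max (R (c i) - ε₁) 0) ^ 2 * (t i.succ - t i.castSucc) /
            (2 * Real.sqrt (1 + ‖w (c i)‖ ^ 2)) ≤
          (μHE[2] ((fun y => y - (inner ℝ y (e + w (c i)) / ‖e + w (c i)‖ ^ 2) • (e + w (c i))) ''
            {x : E3 | ∃ τ ∈ Set.Icc (t i.castSucc) (t i.succ), ∃ ρ ∈ Set.Icc 0 (R τ),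
              ∃ s : ℝ, abs s ≤ L ∧ x = p₀ + ρ • (a + τ • b) + s • (e + w τ)})).toReal ∧
        (μHE[2] ((fun y => y - (inner ℝ y (e + w (c i)) / ‖e + w (c i)‖ ^ 2) • (e + w (c i))) ''
            {x : E3 | ∃ τ ∈ Set.Icc (t i.castSucc) (t i.succ), ∃ ρ ∈ Set.Icc 0 (R τ),
              ∃ s : ℝ, abs s ≤ L ∧ x = p₀ + ρ • (a + τ • b) + s • (e + w τ)})).toReal ≤
          κ * (R (c i) + ε₁ + 3 * ε₁) ^ 2 * (t i.succ - t i.castSucc) /
            (2 * Real.sqrt (1 + ‖w (c i)‖ ^ 2)) := by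
      intro i
      set S : Set E3 := {x : E3 | ∃ τ ∈ Set.Icc (t i.castSucc) (t i.succ), ∃ ρ ∈ Set.Icc 0 (R τ),
              ∃ s : ℝ, abs s ≤ L ∧ x = p₀ + ρ • (a + τ • b) + s • (e + w τ)} with hS
      change _ ≤ (μHE[2] (proj (e + w (c i)) '' S)).toReal ∧
        (μHE[2] (proj (e + w (c i)) '' S)).toReal ≤ _
      have hup1 : proj (e + w (c i)) '' S ⊆ convexHull ℝ ({p i, q i, r i} : Set E3) := by
        apply proj_image_subset_of_cyl _ _ _ _ (hdne i) (hperp i).1 (hperp i).2.1 (hperp i).2.2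
        refine subset_trans ?_ (hcov i)
        rintro x ⟨τ, hτ, ρ, hρ, s, hs, rfl⟩
        refine ⟨τ, hτ, ρ, ⟨hρ.1, ?_⟩, s, hs, rfl⟩
        have := abs_lt.mp (hRclose i τ hτ)
        linarith [hρ.2]
      have hlo1 : proj (e + w (c i)) '' convexHull ℝ
          ({p₀, p₀ + (max (R (c i) - ε₁) 0) • (a + t i.castSucc • b),
            p₀ + (max (R (c i) - ε₁) 0) • (a + t i.succ • b)} : Set E3) ⊆
          proj (e + w (c i)) '' S := by
        apply Set.image_mono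
        apply fan_subset_piece e a b p₀ w R L hL.le _ _ _ (hlt i).le (le_max_right _ _)
        intro τ hτ
        have h1 := abs_lt.mp (hRclose i τ hτ)
        exact max_le (by linarith) (hR0 τ (hsub i hτ))
      have hfin : μHE[2] (proj (e + w (c i)) '' S) ≠ ⊤ :=
        ne_top_of_le_ne_top (Crest.Agent.Helper9.Area.area_triangle_ne_top _ _ _)
          (measure_mono hup1)
      constructor
      · have h2 := measure_mono (μ := μHE[2]) hlo1
        rw [area_proj_fan e a b p₀ (w (c i)) he ha hb (hw _ (hsub i (hcmem i))) _ _ _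
          (hlt i).le] at h2
        have h3 := ENNReal.toReal_mono hfin h2
        rw [ENNReal.toReal_ofReal (div_nonneg (mul_nonneg (mul_nonneg (Real.sqrt_nonneg _)
          (sq_nonneg _)) (sub_nonneg.mpr (hlt i).le)) (by positivity))] at h3
        exact h3
      · have h2 := measure_mono (μ := μHE[2]) hup1
        have h3 := ENNReal.toReal_mono (Crest.Agent.Helper9.Area.area_triangle_ne_top _ _ _) h2
        rw [hareaR i] at h3
        exact h3
    have hsum_lo := Finset.sum_le_sum (fun i (_ : i ∈ Finset.univ) => (hbounds i).1)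
    have hsum_up := Finset.sum_le_sum (fun i (_ : i ∈ Finset.univ) => (hbounds i).2)
    rw [abs_le] at hup hlo ⊢
    constructor <;> linarith [hup.1, hup.2, hlo.1, hlo.2]

end Crest.Agent.Lead.Sweep
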